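import Vale.Agent.P091.AD.Base

/-!
# P091, block AD, row AD-10: Lemma C from the frozen statements (helper832)

`LemmaC` of `AD/Base.lean` from `Gibbs`, `Window`, `WinMono`, `LocExtract`, `LocStep`.
-/

set_option autoImplicit false

open Finset Real Filter
open Vale.Agent.P065.Ent

noncomputable section

namespace Vale.Agent.P091.AD.H832

/-! ## Large parameters -/

/-- eventually a power is below a larger power -/
theorem ev_pow (K a b : ℝ) (h : a < b) : ∀ᶠ X : ℝ in atTop, K * X ^ a ≤ X ^ b := by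
  have h1 := (tendsto_rpow_atTop (sub_pos.2 h)).eventually_ge_atTop K
  filter_upwards [h1, eventually_gt_atTop 0] with X hX hX0
  have : X ^ b = X ^ (b - a) * X ^ a := by
    rw [← rpow_add hX0]; congr 1; ring
  rw [this]
  exact mul_le_mul_of_nonneg_right hX (rpow_nonneg hX0.le _)

/-- eventually a power is below `exp (s * X ^ 0.6)` -/
theorem ev_exp (K a s : ℝ) (hs : 0 < s) :
    ∀ᶠ X : ℝ in atTop, K * X ^ a ≤ exp (s * X ^ (0.6 : ℝ)) := by
  have h1 : Tendsto (fun X : ℝ => X ^ (0.6 : ℝ)) atTop atTop := tendsto_rpow_atTop (by norm_num)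
  have h2 := (isLittleO_rpow_exp_pos_mul_atTop (a / 0.6) hs).comp_tendsto h1
  have h3 := h2.def (show (0 : ℝ) < 1 / (|K| + 1) by positivity)
  filter_upwards [h3, eventually_gt_atTop 0] with X hX hX0
  simp only [Function.comp, norm_eq_abs, abs_exp] at hX
  have h4 : (X ^ (0.6 : ℝ)) ^ (a / 0.6) = X ^ a := by
    rw [← rpow_mul hX0.le]; congr 1; field_simp
  rw [h4, abs_of_nonneg (rpow_nonneg hX0.le _)] at hX
  have h5 : K * X ^ a ≤ (|K| + 1) * X ^ a :=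
    mul_le_mul_of_nonneg_right (by linarith [le_abs_self K]) (rpow_nonneg hX0.le _)
  refine h5.trans ?_
  calc (|K| + 1) * X ^ a ≤ (|K| + 1) * (1 / (|K| + 1) * exp (s * X ^ (0.6 : ℝ))) :=
        mul_le_mul_of_nonneg_left hX (by positivity)
    _ = exp (s * X ^ (0.6 : ℝ)) := by field_simp

/-- the facts about large `R` used in the assembly -/
structure Lg (Cw Ce Cs R : ℝ) : Prop where
  R0 : 0 < R
  X1 : 1 ≤ log R
  u1 : 1 ≤ UU R
  ux : UU R ≤ log R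
  l24 : 24 ≤ LL R
  f3 : 64 * UU R ^ 2 * exp (LL R) ≤ R
  f4 : 1.1 * Cs * Ce * Cw * UU R ^ 3 ≤ exp (LL R / 6)
  f5 : 1.1 * Cw * UU R * log R ≤ exp (LL R)
  f8 : 8 ≤ exp (LL R / 2) * (log R) ^ (-0.5 : ℝ)
  f9 : 2.2 * Ce * Cw * UU R ^ 3 + 1 ≤ R * (log R) ^ (-0.5 : ℝ)
  g1 : UU R ^ 2 ≤ LL R * (log R) ^ (-0.5 : ℝ)
  g2 : UU R ^ 2 * log R ≤ LL R ^ 2
  lx : LL R ≤ log R

theorem ev_Lg (Cw Ce Cs : ℝ) : ∀ᶠ R : ℝ in atTop, Lg Cw Ce Cs R := by
  have hlog := tendsto_log_atTop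
  have a1 := hlog.eventually (eventually_ge_atTop (1 : ℝ))
  have a2 := hlog.eventually (ev_pow 24 0 0.6 (by norm_num))
  have a3 := hlog.eventually (ev_exp 64 0.02 1 (by norm_num))
  have a3' := hlog.eventually (ev_pow 2 0.6 1 (by norm_num))
  have a4 := hlog.eventually (ev_exp (1.1 * Cs * Ce * Cw) 0.03 (1 / 6) (by norm_num))
  have a5 := hlog.eventually (ev_exp (1.1 * Cw) 1.01 1 (by norm_num))
  have a8 := hlog.eventually (ev_exp 8 0.5 (1 / 2) (by norm_num))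
  have a9 := hlog.eventually (ev_exp (2 * |Ce| * 1.1 * |Cw| + 2 * |Ce| + 2) 0.53 1 (by norm_num))
  filter_upwards [a1, a2, a3, a3', a4, a5, a8, a9, eventually_gt_atTop (0 : ℝ)] with
    R b1 b2 b3 b3' b4 b5 b8 b9 b0
  have hX0 : (0 : ℝ) < log R := lt_of_lt_of_le one_pos b1
  have hU2 : UU R ^ 2 = log R ^ (0.02 : ℝ) := by
    unfold UU; rw [← rpow_natCast, ← rpow_mul hX0.le]; norm_num
  have hU3 : UU R ^ 3 = log R ^ (0.03 : ℝ) := by
    unfold UU; rw [← rpow_natCast, ← rpow_mul hX0.le]; norm_num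
  have hRe : R = exp (log R) := (exp_log b0).symm
  have hu1 : 1 ≤ UU R := by
    unfold UU; exact one_le_rpow b1 (by norm_num)
  have hlx : LL R ≤ log R := by
    unfold LL
    calc log R ^ (0.6 : ℝ) ≤ log R ^ (1 : ℝ) := rpow_le_rpow_of_exponent_le b1 (by norm_num)
      _ = log R := rpow_one _
  refine ⟨b0, b1, hu1, ?_, ?_, ?_, ?_, ?_, ?_, ?_, ?_, ?_, hlx⟩
  · unfold UU
    calc log R ^ (0.01 : ℝ) ≤ log R ^ (1 : ℝ) := rpow_le_rpow_of_exponent_le b1 (by norm_num)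
      _ = log R := rpow_one _
  · rw [rpow_zero, mul_one] at b2
    exact b2
  · rw [hU2]
    unfold LL
    have h1 : (64 : ℝ) * log R ^ (0.02 : ℝ) * exp (log R ^ (0.6 : ℝ)) ≤
        exp (1 * log R ^ (0.6 : ℝ)) * exp (log R ^ (0.6 : ℝ)) :=
      mul_le_mul_of_nonneg_right b3 (exp_pos _).le
    refine h1.trans ?_
    rw [← exp_add]
    conv_rhs => rw [hRe]
    apply exp_le_exp.2
    rw [rpow_one] at b3'
    linarith
  · rw [hU3]; unfold LL
    refine b4.trans (le_of_eq ?_)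
    congr 1; ring
  · unfold UU LL
    refine le_trans (le_of_eq ?_) (b5.trans (le_of_eq ?_))
    · have : log R ^ (1.01 : ℝ) = log R ^ (0.01 : ℝ) * log R := by
        conv_rhs => rw [← rpow_one (log R), ← rpow_mul hX0.le, ← rpow_add hX0]
        norm_num
      rw [this]; ring
    · rw [one_mul]
  · have h1 : log R ^ (0.5 : ℝ) * log R ^ (-0.5 : ℝ) = 1 := by
      rw [← rpow_add hX0]; norm_num
    have h2 := mul_le_mul_of_nonneg_right b8 (rpow_nonneg hX0.le (-0.5 : ℝ))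
    rw [mul_assoc, h1, mul_one] at h2
    refine h2.trans (le_of_eq ?_)
    unfold LL
    congr 2; ring
  · have h1 : log R ^ (0.5 : ℝ) * log R ^ (-0.5 : ℝ) = 1 := by
      rw [← rpow_add hX0]; norm_num
    have h53 : log R ^ (0.53 : ℝ) = log R ^ (0.03 : ℝ) * log R ^ (0.5 : ℝ) := by
      rw [← rpow_add hX0]; norm_num
    have h2 : 2.2 * Ce * Cw * UU R ^ 3 + 1 ≤
        (2 * |Ce| * 1.1 * |Cw| + 2 * |Ce| + 2) * log R ^ (0.03 : ℝ) := by
      have e1 : (1 : ℝ) ≤ log R ^ (0.03 : ℝ) := one_le_rpow b1 (by norm_num)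
      have e2 : Ce * Cw ≤ |Ce| * |Cw| := by rw [← abs_mul]; exact le_abs_self _
      rw [hU3]
      have e5 : (Ce * Cw) * log R ^ (0.03 : ℝ) ≤ (|Ce| * |Cw|) * log R ^ (0.03 : ℝ) :=
        mul_le_mul_of_nonneg_right e2 (by positivity)
      have e8 : 0 ≤ |Ce| * log R ^ (0.03 : ℝ) := by positivity
      nlinarith
    have h3 : (2 * |Ce| * 1.1 * |Cw| + 2 * |Ce| + 2) * log R ^ (0.03 : ℝ) * log R ^ (0.5 : ℝ) ≤ R := by
      rw [mul_assoc, ← h53]
      refine b9.trans ?_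
      rw [one_mul]
      conv_rhs => rw [hRe]
      apply exp_le_exp.2
      exact hlx
    have h4 := mul_le_mul_of_nonneg_right h3 (rpow_nonneg hX0.le (-0.5 : ℝ))
    rw [mul_assoc, h1, mul_one] at h4
    exact h2.trans h4
  · rw [hU2]; unfold LL
    rw [← rpow_add hX0]
    exact rpow_le_rpow_of_exponent_le b1 (by norm_num)
  · rw [hU2]; unfold LL
    have h1 : log R ^ (0.02 : ℝ) * log R = log R ^ (1.02 : ℝ) := by
      conv_lhs => rw [← rpow_one (log R), ← rpow_mul hX0.le, ← rpow_add hX0]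
      norm_num
    have h2 : (log R ^ (0.6 : ℝ)) ^ 2 = log R ^ (1.2 : ℝ) := by
      rw [← rpow_natCast, ← rpow_mul hX0.le]; norm_num
    rw [h1, h2]
    exact rpow_le_rpow_of_exponent_le b1 (by norm_num)

/-- pigeonhole over dyadic scales -/
theorem pigeon (f : ℕ → ℝ) (b J : ℕ) (hJ : 1 ≤ J) :
    ∃ j < J, f (b + j + 1) - f (b + j) ≤ (f (b + J) - f b) / J := by
  by_contra hcon
  push Not at hcon
  have h1 : ∑ j ∈ range J, (f (b + j + 1) - f (b + j)) = f (b + J) - f b := by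
    have := Finset.sum_range_sub (fun j => f (b + j)) J
    simpa [add_assoc] using this
  have hJ0 : (0 : ℝ) < J := by exact_mod_cast hJ
  have h2 : ∑ j ∈ range J, (f (b + J) - f b) / (J : ℝ) < ∑ j ∈ range J, (f (b + j + 1) - f (b + j)) := by
    apply Finset.sum_lt_sum_of_nonempty
    · exact ⟨0, Finset.mem_range.2 hJ⟩
    · intro j hj
      exact hcon j (by simpa using hj)
  rw [h1, sum_const, card_range, nsmul_eq_mul, mul_div_cancel₀ _ hJ0.ne'] at h2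
  exact lt_irrefl _ h2

theorem first_self (n : ℕ) : first n n = univ := by
  ext i; simp [first]

/-- the choice of the dyadic exponents -/
theorem expo {l : ℝ} (hl : 24 ≤ l) : ∃ a J : ℕ, 2 ≤ a ∧ 1 ≤ J ∧ l / 4 ≤ (J : ℝ) ∧
    exp (l / 2) ≤ (2 : ℝ) ^ a ∧ (2 : ℝ) ^ (a + 3 + J) ≤ exp l := by
  have hlog2 : 0.6931471803 < log 2 := log_two_gt_d9
  have hlog2' : log 2 < 0.6931471808 := log_two_lt_d9
  have hl0 : 0 < log 2 := by linarith
  refine ⟨⌈l / (2 * log 2)⌉₊, ⌊l / 2⌋₊, ?_, ?_, ?_, ?_, ?_⟩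
  · have h1 : (2 : ℝ) ≤ l / (2 * log 2) := by
      rw [le_div_iff₀ (by positivity)]; nlinarith
    have h2 := h1.trans (Nat.le_ceil (l / (2 * log 2)))
    exact_mod_cast h2
  · exact Nat.le_floor (by push_cast; linarith)
  · have := Nat.lt_floor_add_one (l / 2)
    linarith
  · have h1 := Nat.le_ceil (l / (2 * log 2))
    have h2 : l / 2 ≤ ⌈l / (2 * log 2)⌉₊ * log 2 := by
      rw [div_le_iff₀ (by positivity)] at h1; linarith
    calc exp (l / 2) ≤ exp (⌈l / (2 * log 2)⌉₊ * log 2) := exp_le_exp.2 h2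
      _ = (2 : ℝ) ^ ⌈l / (2 * log 2)⌉₊ := by
        rw [mul_comm, exp_mul, exp_log two_pos, rpow_natCast]
  · have h1 := Nat.ceil_lt_add_one (show 0 ≤ l / (2 * log 2) by positivity)
    have h2 := Nat.floor_le (show 0 ≤ l / 2 by linarith)
    have h3 : (⌈l / (2 * log 2)⌉₊ : ℝ) * log 2 ≤ l / 2 + log 2 := by
      have : (⌈l / (2 * log 2)⌉₊ : ℝ) * log 2 ≤ (l / (2 * log 2) + 1) * log 2 :=
        mul_le_mul_of_nonneg_right h1.le hl0.le
      refine this.trans (le_of_eq ?_)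
      field_simp
    have h4 : (⌊l / 2⌋₊ : ℝ) * log 2 ≤ l / 2 * 0.7 := by
      calc (⌊l / 2⌋₊ : ℝ) * log 2 ≤ (l / 2) * log 2 := mul_le_mul_of_nonneg_right h2 hl0.le
        _ ≤ l / 2 * 0.7 := mul_le_mul_of_nonneg_left (by linarith) (by linarith)
    have h6 : ∀ n : ℕ, (2 : ℝ) ^ n = exp ((n : ℝ) * log 2) := by
      intro n
      rw [mul_comm, exp_mul, exp_log two_pos, rpow_natCast]
    rw [h6]
    apply exp_le_exp.2
    push_cast
    nlinarith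

theorem costLe_mono {Γ : Type} {lam : Law Γ} {A : Finset Γ} {c c' : ℝ} (h : lam.costLe A c)
    (hc : c ≤ c') : lam.costLe A c' := by
  intro ω
  obtain ⟨h1, h2⟩ := h ω
  refine ⟨h1, h2.trans ?_⟩
  exact mul_le_mul_of_nonneg_right (exp_le_exp.2 hc) (Pr_nonneg lam.prob _ _)

/-- the numerical frame of the assembly -/
structure Num (Cw Ce Cs R X u l Y : ℝ) : Prop where
  cw : 0 < Cw
  ce : 0 < Ce
  cs : 0 < Cs
  R0 : 0 < R
  RX : exp X = R
  X1 : 1 ≤ X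
  u1 : 1 ≤ u
  ux : u ≤ X
  l24 : 24 ≤ l
  f3 : 64 * u ^ 2 * exp l ≤ R
  f4 : 1.1 * Cs * Ce * Cw * u ^ 3 ≤ exp (l / 6)
  f5 : 1.1 * Cw * u * X ≤ exp l
  f8 : 8 ≤ exp (l / 2) * Y
  f9 : 2.2 * Ce * Cw * u ^ 3 + 1 ≤ R * Y
  g1 : u ^ 2 ≤ l * Y
  g2 : u ^ 2 * X ≤ l ^ 2
  lx : l ≤ X
  Y0 : 0 < Y

theorem Lg.num {Cw Ce Cs R : ℝ} (h : Lg Cw Ce Cs R) (hCw : 0 < Cw) (hCe : 0 < Ce) (hCs : 0 < Cs) :
    Num Cw Ce Cs R (log R) (UU R) (LL R) ((log R) ^ (-0.5 : ℝ)) :=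
  ⟨hCw, hCe, hCs, h.R0, exp_log h.R0, h.X1, h.u1, h.ux, h.l24, h.f3, h.f4, h.f5, h.f8, h.f9, h.g1,
    h.g2, h.lx, rpow_pos_of_pos (by linarith [h.X1]) _⟩

section num
variable {Cw Ce Cs R X u l Y : ℝ} (N : Num Cw Ce Cs R X u l Y)
include N

theorem Num.u0 : 0 < u := by linarith [N.u1]
theorem Num.X0 : 0 < X := by linarith [N.X1]
theorem Num.l0 : 0 < l := by linarith [N.l24]

theorem Num.tau1 {W B P tau : ℝ} (hW0 : 0 < W) (hB : exp (l / 2) ≤ B) (hP : P = W * B)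
    (htau : tau = Cw * u * (1.1 * R) * W ^ 2 / P ^ 2) :
    0 ≤ tau ∧ tau ≤ R / X := by
  have hu0 := N.u0
  have hX0 := N.X0
  have hR0 := N.R0
  have hCw := N.cw
  have ha0 : 0 < B := (exp_pos _).trans_le hB
  have htau' : tau = 1.1 * Cw * u * R / (B * B) := by
    rw [htau, hP]; field_simp
  have h2a : exp l ≤ B * B := by
    have heh2 : exp (l / 2) * exp (l / 2) = exp l := by rw [← exp_add]; congr 1; ring
    rw [← heh2]; exact mul_le_mul hB hB (exp_pos _).le ha0.le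
  refine ⟨by rw [htau']; positivity, ?_⟩
  rw [htau', div_le_div_iff₀ (by positivity) hX0]
  calc 1.1 * Cw * u * R * X = (1.1 * Cw * u * X) * R := by ring
    _ ≤ exp l * R := mul_le_mul_of_nonneg_right N.f5 hR0.le
    _ ≤ B * B * R := mul_le_mul_of_nonneg_right h2a hR0.le
    _ = R * (B * B) := by ring

theorem Num.tau2 {W B P tau : ℝ} (hW0 : 0 < W) (hB : exp (l / 2) ≤ B) (hP : P = W * B)
    (hPge : R ≤ u * P) (htau : tau = Cw * u * (1.1 * R) * W ^ 2 / P ^ 2) :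
    tau / W ≤ 1.1 * Cw * u ^ 2 / B := by
  have hu0 := N.u0
  have hCw := N.cw
  have ha0 : 0 < B := (exp_pos _).trans_le hB
  have hP0 : 0 < P := by rw [hP]; positivity
  have e1 : tau / W = 1.1 * Cw * u * (R / P) / B := by
    rw [htau, hP]; field_simp
  rw [e1]
  apply div_le_div_of_nonneg_right _ ha0.le
  have e2 : R / P ≤ u := by rw [div_le_iff₀ hP0]; exact hPge
  calc 1.1 * Cw * u * (R / P) ≤ 1.1 * Cw * u * u := mul_le_mul_of_nonneg_left e2 (by positivity)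
    _ = 1.1 * Cw * u ^ 2 := by ring

theorem Num.D1b {P D1 : ℝ} (hP0 : 0 < P) (hPge : R ≤ u * P) (hD1 : D1 = Cw * u * (1.1 * R) / P) :
    D1 ≤ 1.1 * Cw * u ^ 2 := by
  have hu0 := N.u0
  have hCw := N.cw
  rw [hD1, div_le_iff₀ hP0]
  calc Cw * u * (1.1 * R) ≤ Cw * u * (1.1 * (u * P)) := by
        apply mul_le_mul_of_nonneg_left _ (by positivity); linarith
    _ = 1.1 * Cw * u ^ 2 * P := by ring

theorem Num.del {W B tau δ : ℝ} (hB : exp (l / 2) ≤ B) 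
    (ht : tau / W ≤ 1.1 * Cw * u ^ 2 / B) (hδ : δ = Ce * u * tau / W) :
    Cs * δ ≤ exp (-(l / 3)) := by
  have hu0 := N.u0
  have hCe := N.ce
  have hCs := N.cs
  have hehl : 0 < exp (l / 2) := exp_pos _
  have ha0 : 0 < B := hehl.trans_le hB
  have e1 : Cs * δ = Cs * Ce * u * (tau / W) := by rw [hδ]; ring
  rw [e1]
  calc Cs * Ce * u * (tau / W) ≤ Cs * Ce * u * (1.1 * Cw * u ^ 2 / B) :=
        mul_le_mul_of_nonneg_left ht (by positivity)
    _ = (1.1 * Cs * Ce * Cw * u ^ 3) / B := by ring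
    _ ≤ exp (l / 6) / B := div_le_div_of_nonneg_right N.f4 ha0.le
    _ ≤ exp (l / 6) / exp (l / 2) := div_le_div_of_nonneg_left (exp_pos _).le hehl hB
    _ = exp (-(l / 3)) := by rw [← exp_sub]; congr 1; ring

theorem Num.del12 {δ : ℝ} (hδe : Cs * δ ≤ exp (-(l / 3))) : Cs * δ ≤ 1 / 2 := by
  have hl := N.l24
  refine hδe.trans ?_
  rw [exp_neg]
  have h1 : (2 : ℝ) ≤ exp (l / 3) := by
    have := add_one_le_exp (l / 3); linarith
  rw [one_div]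
  exact inv_anti₀ two_pos h1

theorem Num.delM {δ : ℝ} {M : ℕ} (hδ0 : 0 ≤ δ) (hδe : Cs * δ ≤ exp (-(l / 3)))
    (hMge : 3 * (X + 1) / l ≤ M) : (Cs * δ) ^ M * (1.1 * R) ≤ 1 := by
  have hl0 := N.l0
  have hCs := N.cs
  have hR0 := N.R0
  have h1 : (Cs * δ) ^ M ≤ exp (-(X + 1)) := by
    calc (Cs * δ) ^ M ≤ (exp (-(l / 3))) ^ M := pow_le_pow_left₀ (by positivity) hδe M
      _ = exp (-((l / 3) * M)) := by rw [← exp_nat_mul]; congr 1; ring
      _ ≤ exp (-(X + 1)) := by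
        apply exp_le_exp.2
        rw [div_le_iff₀ hl0] at hMge
        linarith
  have h2 : (Cs * δ) ^ M * (1.1 * R) ≤ exp (-(X + 1)) * (1.1 * R) :=
    mul_le_mul_of_nonneg_right h1 (by positivity)
  refine h2.trans ?_
  have h3 : exp (-(X + 1)) * R = (exp 1)⁻¹ := by
    rw [← N.RX, ← exp_add, ← exp_neg]; congr 1; ring
  have h4 : (2 : ℝ) ≤ exp 1 := by have := add_one_le_exp (1 : ℝ); linarith
  have h5 : (exp 1)⁻¹ ≤ 2⁻¹ := inv_anti₀ two_pos h4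
  calc exp (-(X + 1)) * (1.1 * R) = 1.1 * (exp (-(X + 1)) * R) := by ring
    _ ≤ 1 := by rw [h3]; norm_num at h5 ⊢; linarith

theorem Num.MM {M : ℕ} (hM' : M = ⌈3 * (X + 1) / l⌉₊) :
    3 * (X + 1) / l ≤ M ∧ (M : ℝ) ≤ 7 * (X / l) ∧ 1 ≤ M := by
  have hl0 := N.l0
  have hX0 := N.X0
  have hX1 := N.X1
  have hlx := N.lx
  have hMge : 3 * (X + 1) / l ≤ M := by rw [hM']; exact Nat.le_ceil _
  have hXl : 1 ≤ X / l := by rw [le_div_iff₀ hl0]; linarith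
  have hMle : (M : ℝ) ≤ 7 * (X / l) := by
    have h1 := Nat.ceil_lt_add_one (show 0 ≤ 3 * (X + 1) / l by positivity)
    rw [← hM'] at h1
    have h2 : 3 * (X + 1) / l ≤ 6 * (X / l) := by
      rw [← mul_div_assoc]
      apply div_le_div_of_nonneg_right _ hl0.le
      linarith
    linarith
  refine ⟨hMge, hMle, ?_⟩
  have : (0 : ℝ) < M := lt_of_lt_of_le (by positivity) hMge
  have h2 : 0 < M := by exact_mod_cast this
  omega

theorem Num.KK {K : ℕ} {k : ℝ} (hk64 : 64 * u ≤ k) (hK : K = ⌈k * u⌉₊) :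
    k * u ≤ K ∧ (K : ℝ) ≤ 2 * (k * u) ∧ 1 ≤ K := by
  have hu0 := N.u0
  have hu1 := N.u1
  have hk0 : 0 < k := by linarith
  have hKge : k * u ≤ K := by rw [hK]; exact Nat.le_ceil _
  have hku1 : 1 ≤ k * u := by nlinarith
  have hKle : (K : ℝ) ≤ 2 * (k * u) := by
    have := Nat.ceil_lt_add_one (show 0 ≤ k * u by positivity)
    rw [← hK] at this
    linarith
  refine ⟨hKge, hKle, ?_⟩
  have : (1 : ℝ) ≤ K := hku1.trans hKge
  exact_mod_cast this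

theorem Num.ku {k W B P : ℝ} (hk0 : 0 < k) (hW0 : 0 < W) (hB : exp (l / 2) ≤ B) (hP : P = W * B)
    (hPu : P * u ≤ 4 * R) (hkW : 8 * k ≤ W) : 2 * (k * u) ≤ R * Y := by
  have hu0 := N.u0
  have hY0 := N.Y0
  have hehl : 0 < exp (l / 2) := exp_pos _
  have hWu : W * exp (l / 2) ≤ P := by
    rw [hP]; exact mul_le_mul_of_nonneg_left hB hW0.le
  have e1 : 8 * (k * u) * exp (l / 2) ≤ 4 * R := by
    calc 8 * (k * u) * exp (l / 2) = (8 * k) * (u * exp (l / 2)) := by ring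
      _ ≤ W * (u * exp (l / 2)) := mul_le_mul_of_nonneg_right hkW (by positivity)
      _ = (W * exp (l / 2)) * u := by ring
      _ ≤ P * u := mul_le_mul_of_nonneg_right hWu hu0.le
      _ ≤ 4 * R := hPu
  have e2 : 8 * (2 * (k * u)) ≤ exp (l / 2) * Y * (2 * (k * u)) :=
    mul_le_mul_of_nonneg_right N.f8 (by positivity)
  have e3 : exp (l / 2) * Y * (2 * (k * u)) ≤ R * Y := by
    have : exp (l / 2) * Y * (2 * (k * u)) =
        (8 * (k * u) * exp (l / 2)) * (Y / 4) := by ring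
    rw [this]
    calc (8 * (k * u) * exp (l / 2)) * (Y / 4) ≤ 4 * R * (Y / 4) :=
          mul_le_mul_of_nonneg_right e1 (by positivity)
      _ = R * Y := by ring
  have e4 : 0 < k * u := by positivity
  linarith

theorem Num.gg {Th tau g J : ℝ} (hTh0 : 0 ≤ Th) (hTh : Th ≤ 1.1 * R) (htau0 : 0 ≤ tau)
    (htau : tau ≤ R / X) (hJl : l / 4 ≤ J) (hg : g = ((1 + 1 / u) * Th + tau) / J) :
    0 ≤ g ∧ g + tau ≤ 14 * (R / l) := by
  have hu0 := N.u0
  have hl0 := N.l0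
  have hR0 := N.R0
  have hJ0 : 0 < J := by linarith
  have hu1' : 1 / u ≤ 1 := by rw [div_le_one hu0]; exact N.u1
  have hRXl : R / X ≤ R / l := div_le_div_of_nonneg_left hR0.le hl0 N.lx
  have hRXR : R / X ≤ R := div_le_self hR0.le N.X1
  have hTub : (1 + 1 / u) * Th ≤ 2.2 * R := by
    calc (1 + 1 / u) * Th ≤ 2 * Th := mul_le_mul_of_nonneg_right (by linarith) hTh0
      _ ≤ 2.2 * R := by linarith
  have hgl : g ≤ 13 * (R / l) := by
    rw [hg]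
    calc ((1 + 1 / u) * Th + tau) / J ≤ (3.2 * R) / (l / 4) := by
          apply div_le_div₀ (by positivity) (by linarith) (by positivity) hJl
      _ = 12.8 * (R / l) := by field_simp; ring
      _ ≤ 13 * (R / l) := mul_le_mul_of_nonneg_right (by norm_num) (by positivity)
  refine ⟨by rw [hg]; positivity, by linarith⟩

theorem Num.cost {K k g tau D1 W B c : ℝ} (hk0 : 0 < k) (hK0 : 0 ≤ K) (hKle : K ≤ 2 * (k * u))
    (h2ku : 2 * (k * u) ≤ R * Y) (hg0 : 0 ≤ g) (htau0 : 0 ≤ tau) (hgt : g + tau ≤ 14 * (R / l))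
    (hB : 1 ≤ B) (ht : tau / W ≤ 1.1 * Cw * u ^ 2 / B) (hD1 : D1 ≤ 1.1 * Cw * u ^ 2) :
    c + Cs * (K * (Ce * u * (g + tau) / k + 1) + Ce * u * (D1 + tau / W) + 1) ≤
      c + (10 + 10 * Ce + 230 * (Cs * Ce) + 2 * Cs) * R * Y := by
  have hu0 := N.u0
  have hl0 := N.l0
  have hR0 := N.R0
  have hY0 := N.Y0
  have hCe := N.ce
  have hCs := N.cs
  have hCw := N.cw
  have hgt0 : 0 ≤ g + tau := by linarith
  have e2 : K * (Ce * u * (g + tau) / k) ≤ 28 * Ce * (R * Y) := by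
    calc K * (Ce * u * (g + tau) / k) ≤
          (2 * (k * u)) * (Ce * u * (g + tau) / k) :=
          mul_le_mul_of_nonneg_right hKle (by positivity)
      _ = 2 * Ce * (u ^ 2 * (g + tau)) := by field_simp
      _ ≤ 2 * Ce * (l * Y * (14 * (R / l))) := by
          apply mul_le_mul_of_nonneg_left _ (by positivity)
          exact mul_le_mul N.g1 hgt (by positivity) (by positivity)
      _ = 28 * Ce * (R * Y) := by field_simp; ring
  have e3 : K ≤ R * Y := hKle.trans h2ku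
  have e4 : Ce * u * (D1 + tau / W) + 1 ≤ R * Y := by
    refine le_trans ?_ N.f9
    have : D1 + tau / W ≤ 2.2 * Cw * u ^ 2 := by
      have : 1.1 * Cw * u ^ 2 / B ≤ 1.1 * Cw * u ^ 2 := div_le_self (by positivity) hB
      linarith
    have h5 : Ce * u * (D1 + tau / W) ≤ Ce * u * (2.2 * Cw * u ^ 2) :=
      mul_le_mul_of_nonneg_left this (by positivity)
    have h6 : Ce * u * (2.2 * Cw * u ^ 2) = 2.2 * Ce * Cw * u ^ 3 := by ring
    linarith
  have e1 : K * (Ce * u * (g + tau) / k + 1) + Ce * u * (D1 + tau / W) + 1 ≤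
      (28 * Ce + 1 + 1) * (R * Y) := by linarith
  have hRY : 0 < R * Y := by positivity
  have e5 : Cs * (K * (Ce * u * (g + tau) / k + 1) + Ce * u * (D1 + tau / W) + 1) ≤
      Cs * ((28 * Ce + 1 + 1) * (R * Y)) := mul_le_mul_of_nonneg_left e1 hCs.le
  have e6 : Cs * ((28 * Ce + 1 + 1) * (R * Y)) ≤
      (10 + 10 * Ce + 230 * (Cs * Ce) + 2 * Cs) * R * Y := by
    have : 0 ≤ (10 + 10 * Ce + 202 * (Cs * Ce)) * (R * Y) := by positivity
    linarith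
  linarith

theorem Num.ent {K k g tau M Th H2 : ℝ} (hk64 : 64 * u ≤ k) (hK0 : 0 < K) (hKge : k * u ≤ K)
    (hM0 : 0 ≤ M) (hMle : M ≤ 7 * (X / l)) (hg0 : 0 ≤ g) (htau0 : 0 ≤ tau)
    (hgt : g + tau ≤ 14 * (R / l)) (htauX : tau ≤ R / X) (hTh0 : 0 ≤ Th)
    (hH : H2 ≤ (1 + 1 / u) * Th + tau) :
    (1 + 56 / k) * ((1 + 1 / u) * (H2 + Ce * tau) + Cs * M * (Ce * u * (g + tau))
      + 2 * k * (1.1 * R) / K) ≤
      (1 + (10 + 10 * Ce + 230 * (Cs * Ce) + 2 * Cs) / u) * Th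
        + (10 + 10 * Ce + 230 * (Cs * Ce) + 2 * Cs) * R / u := by
  have hu0 := N.u0
  have hl0 := N.l0
  have hX0 := N.X0
  have hR0 := N.R0
  have hCe := N.ce
  have hCs := N.cs
  have hk0 : 0 < k := by linarith
  have hCC : 0 < Cs * Ce := by positivity
  have h1u : 0 < 1 + 1 / u := by positivity
  have hu1' : 1 / u ≤ 1 := by rw [div_le_one hu0]; exact N.u1
  have hRXu : R / X ≤ R / u := div_le_div_of_nonneg_left hR0.le hu0 N.ux
  have hRu : 0 < R / u := by positivity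
  have h56 : 1 + 56 / k ≤ 1 + 1 / u := by
    have : 56 / k ≤ 1 / u := by
      rw [div_le_div_iff₀ hk0 hu0]; linarith
    linarith
  have e2 : tau ≤ R / u := htauX.trans hRXu
  have hHn : (1 + 1 / u) * (H2 + Ce * tau)
      ≤ (1 + 1 / u) ^ 2 * Th + (2 + 2 * Ce) * (R / u) := by
    have e3 : H2 + Ce * tau ≤ (1 + 1 / u) * Th + (1 + Ce) * (R / u) := by
      have := mul_le_mul_of_nonneg_left e2 hCe.le
      linarith
    calc _ ≤ (1 + 1 / u) * ((1 + 1 / u) * Th + (1 + Ce) * (R / u)) :=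
          mul_le_mul_of_nonneg_left e3 h1u.le
      _ = (1 + 1 / u) ^ 2 * Th + (1 + 1 / u) * ((1 + Ce) * (R / u)) := by ring
      _ ≤ (1 + 1 / u) ^ 2 * Th + 2 * ((1 + Ce) * (R / u)) := by
          have : (1 + 1 / u) * ((1 + Ce) * (R / u)) ≤ 2 * ((1 + Ce) * (R / u)) :=
            mul_le_mul_of_nonneg_right (by linarith) (by positivity)
          linarith
      _ = _ := by ring
  have hMk : Cs * M * (Ce * u * (g + tau)) ≤ 98 * (Cs * Ce) * (R / u) := by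
    have e1 : M * (g + tau) ≤ 7 * (X / l) * (14 * (R / l)) :=
      mul_le_mul hMle hgt (by linarith) (by positivity)
    have e2 : u * (X / l * (R / l)) ≤ R / u := by
      rw [le_div_iff₀ hu0]
      have : u * (X / l * (R / l)) * u = (u ^ 2 * X) * R / l ^ 2 := by
        field_simp
      rw [this, div_le_iff₀ (by positivity)]
      calc u ^ 2 * X * R ≤ l ^ 2 * R := mul_le_mul_of_nonneg_right N.g2 hR0.le
        _ = R * l ^ 2 := by ring
    calc Cs * M * (Ce * u * (g + tau)) = (Cs * Ce) * (u * (M * (g + tau))) := by ring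
      _ ≤ (Cs * Ce) * (u * (7 * (X / l) * (14 * (R / l)))) := by
          apply mul_le_mul_of_nonneg_left _ hCC.le
          exact mul_le_mul_of_nonneg_left e1 hu0.le
      _ = (98 * (Cs * Ce)) * (u * (X / l * (R / l))) := by ring
      _ ≤ (98 * (Cs * Ce)) * (R / u) := mul_le_mul_of_nonneg_left e2 (by positivity)
  have hKR : 2 * k * (1.1 * R) / K ≤ 2.2 * (R / u) := by
    rw [div_le_iff₀ hK0]
    calc 2 * k * (1.1 * R) = 2.2 * (R / u) * (k * u) := by field_simp; ring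
      _ ≤ 2.2 * (R / u) * K := mul_le_mul_of_nonneg_left hKge (by positivity)
  obtain ⟨Z, hZ⟩ : ∃ Z : ℝ, Z = (4.2 + 2 * Ce + 98 * (Cs * Ce)) * (R / u) := ⟨_, rfl⟩
  have hZ0 : 0 ≤ Z := by rw [hZ]; positivity
  have hS' : (1 + 1 / u) * (H2 + Ce * tau)
      + Cs * M * (Ce * u * (g + tau)) + 2 * k * (1.1 * R) / K ≤
      (1 + 1 / u) ^ 2 * Th + Z := by rw [hZ]; linarith
  have hRHS0 : 0 ≤ (1 + 1 / u) ^ 2 * Th + Z := by positivity
  have h560 : 0 ≤ 1 + 56 / k := by positivity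
  have e1 : (1 + 1 / u) ^ 3 ≤ 1 + 7 / u := by
    obtain ⟨v, hv⟩ : ∃ v : ℝ, v = 1 / u := ⟨_, rfl⟩
    have hv0 : 0 ≤ v := by rw [hv]; positivity
    have hv1 : v ≤ 1 := by rw [hv]; exact hu1'
    have : 7 / u = 7 * v := by rw [hv]; ring
    rw [this, ← hv]
    nlinarith [mul_nonneg hv0 (sub_nonneg.2 hv1), mul_nonneg (mul_nonneg hv0 hv0) (sub_nonneg.2 hv1)]
  have e7 : 7 / u ≤ (10 + 10 * Ce + 230 * (Cs * Ce) + 2 * Cs) / u := by
    apply div_le_div_of_nonneg_right _ hu0.le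
    have : 0 ≤ 10 * Ce + 230 * (Cs * Ce) + 2 * Cs := by positivity
    linarith
  have e8 : 2 * Z ≤ (10 + 10 * Ce + 230 * (Cs * Ce) + 2 * Cs) * R / u := by
    have e9 : (10 + 10 * Ce + 230 * (Cs * Ce) + 2 * Cs) * R / u =
      (10 + 10 * Ce + 230 * (Cs * Ce) + 2 * Cs) * (R / u) := by ring
    rw [e9, hZ]
    have : 0 ≤ (1.6 + 6 * Ce + 34 * (Cs * Ce) + 2 * Cs) * (R / u) := by positivity
    linarith
  calc _ ≤ (1 + 56 / k) * ((1 + 1 / u) ^ 2 * Th + Z) := mul_le_mul_of_nonneg_left hS' h560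
    _ ≤ (1 + 1 / u) * ((1 + 1 / u) ^ 2 * Th + Z) := mul_le_mul_of_nonneg_right h56 hRHS0
    _ = (1 + 1 / u) ^ 3 * Th + (1 + 1 / u) * Z := by ring
    _ ≤ (1 + 7 / u) * Th + 2 * Z :=
        add_le_add (mul_le_mul_of_nonneg_right e1 hTh0)
          (mul_le_mul_of_nonneg_right (by linarith) hZ0)
    _ ≤ _ := add_le_add (mul_le_mul_of_nonneg_right (by linarith) hTh0) e8

end num

/-- **AD-10**: Lemma C from the frozen statements -/
theorem lemmaC_of (hG : Gibbs) (hWn : Window) (hM : WinMono) (hE : LocExtract) (hS : LocStep) :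
    LemmaC := by
  obtain ⟨Cw, hCw, hWn⟩ := hWn
  obtain ⟨Ce, hCe, hE⟩ := hE
  obtain ⟨Cs, hCs, hS⟩ := hS
  obtain ⟨R1, hR1⟩ := eventually_atTop.1 (ev_Lg Cw Ce Cs)
  have hCs0 : 0 < Cs := by linarith
  refine ⟨10 + 10 * Ce + 230 * (Cs * Ce) + 2 * Cs, R1, by positivity, ?_⟩
  intro Γ _ A lam R c m hR hA hcost hm1 hm2 hTh
  have N := (hR1 R hR).num hCw hCe hCs0
  obtain ⟨u, hue⟩ : ∃ u, UU R = u := ⟨_, rfl⟩
  obtain ⟨l, hle⟩ : ∃ u, LL R = u := ⟨_, rfl⟩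
  obtain ⟨X, hXe⟩ : ∃ u, log R = u := ⟨_, rfl⟩
  obtain ⟨Y, hYe⟩ : ∃ u, (log R) ^ (-0.5 : ℝ) = u := ⟨_, rfl⟩
  rw [hle, hYe]
  rw [hue] at hm1 hm2 ⊢
  rw [hue, hle, hYe, hXe] at N
  clear hue hle hXe hYe
  obtain ⟨a, J, ha2, hJ1, hJl, hal, hajl⟩ := expo N.l24
  have hu0 := N.u0
  obtain ⟨Q, hQp, hQe, hQac, hQT⟩ := hG Γ lam (2 ^ m)
  have hcn : 0 ≤ Hc Q (sm lam.N) (lb lam.zl) := Hc_nonneg hQp _ _
  obtain ⟨Th, hTe⟩ : ∃ t, lam.Theta (2 ^ m) = t := ⟨_, rfl⟩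
  rw [hTe] at hQT hTh ⊢
  have hD0 : Dv Q (fun u => u) (pw lam.beta) ≤ 1.1 * R := by linarith
  -- the exponents
  have hPge : R ≤ u * 2 ^ m := by
    rw [div_le_iff₀ hu0] at hm1; linarith
  have hPexp : 64 * u * exp l ≤ (2 : ℝ) ^ m := by
    have h1 : 64 * u ^ 2 * exp l ≤ u * 2 ^ m := N.f3.trans hPge
    have h2 : u * (64 * u * exp l) ≤ u * 2 ^ m := by
      refine le_trans (le_of_eq ?_) h1; ring
    exact le_of_mul_le_mul_left h2 hu0
  have hel : 0 < exp l := exp_pos l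
  have hm : a + 3 + J ≤ m := by
    have h1 : (2 : ℝ) ^ (a + 3 + J) ≤ 2 ^ m := by
      refine hajl.trans (le_trans ?_ hPexp)
      have : 1 ≤ 64 * u := by linarith [N.u1]
      calc exp l = 1 * exp l := (one_mul _).symm
        _ ≤ 64 * u * exp l := mul_le_mul_of_nonneg_right this hel.le
    exact (pow_le_pow_iff_right₀ (by norm_num : (1 : ℝ) < 2)).1 h1
  obtain ⟨Q', hp', he', hac', hhW, hTC, hDl⟩ := hWn Γ lam.Lt lam.Z lam.N lam.zl lam.beta (2 ^ m)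
    (2 ^ (m - a)) Q Th (1.1 * R) u lam.beta_isProb hQp hQe hQac Nat.one_le_two_pow (by
      have : (4 : ℕ) = 2 ^ 2 := by norm_num
      rw [this, ← pow_add]
      exact Nat.pow_le_pow_right (by norm_num) (by omega)) N.u1 hD0 hQT
  push_cast at hTC hDl
  have hPW : (2 : ℝ) ^ m = 2 ^ (m - a) * 2 ^ a := by
    rw [← pow_add]; congr 1; omega
  have hW0 : (0 : ℝ) < 2 ^ (m - a) := by positivity
  have hP0 : (0 : ℝ) < 2 ^ m := by positivity
  obtain ⟨tau, htau⟩ : ∃ t : ℝ, t = Cw * u * (1.1 * R) * (2 ^ (m - a)) ^ 2 / (2 ^ m) ^ 2 :=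
    ⟨_, rfl⟩
  rw [← htau] at hTC
  obtain ⟨htau0, htauX⟩ := N.tau1 hW0 hal hPW htau
  have htauW := N.tau2 hW0 hal hPW hPge htau
  obtain ⟨D1, hD1⟩ : ∃ t : ℝ, t = Cw * u * (1.1 * R) / 2 ^ m := ⟨_, rfl⟩
  rw [← hD1] at hDl
  have hD1b := N.D1b hP0 hPge hD1
  -- window entropies
  obtain ⟨f, hf⟩ : ∃ f : ℕ → ℝ, f = fun i => hW Q' lam.N lam.zl (first (2 ^ (m - a)) (2 ^ i)) :=
    ⟨_, rfl⟩
  have hMM := hM Γ lam.Lt lam.Z lam.N lam.zl (2 ^ (m - a)) (2 ^ (m - a))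
    (2 ^ (m - a)) Q' hp' he' le_rfl le_rfl
  rw [first_self] at hMM
  have hup : ∀ i, i ≤ m - a → 0 ≤ f i ∧ f i ≤ (1 + 1 / u) * Th + tau := by
    intro i hi
    have h1 := hM Γ lam.Lt lam.Z lam.N lam.zl (2 ^ (m - a)) (2 ^ i)
      (2 ^ (m - a)) Q' hp' he' (Nat.pow_le_pow_right (by norm_num) hi) le_rfl
    rw [first_self] at h1
    rw [hf]
    refine ⟨h1.2.1, ?_⟩
    have h2 := h1.2.2
    simp only
    linarith
  have h1u : 0 < 1 + 1 / u := by positivity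
  have hTh0 : 0 ≤ Th := by
    have : 0 ≤ (1 + 1 / u) * Th := hMM.2.1.trans hhW
    exact nonneg_of_mul_nonneg_right this h1u
  obtain ⟨j, hj, hpg⟩ := pigeon f (m - a - 3 - J) J hJ1
  have hJ0 : (0 : ℝ) < J := by exact_mod_cast hJ1
  have hex : m - a - 3 - J + J = m - a - 3 := by omega
  rw [hex] at hpg
  obtain ⟨k0, hk0⟩ : ∃ k0, k0 = m - a - 3 - J + j := ⟨_, rfl⟩
  rw [← hk0] at hpg
  have hk1 : k0 + 4 ≤ m - a := by omega
  have hk2 : m ≤ k0 + (a + 3 + J) := by omega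
  obtain ⟨g, hg⟩ : ∃ g : ℝ, g = ((1 + 1 / u) * Th + tau) / J := ⟨_, rfl⟩
  obtain ⟨hg0, hgt⟩ := N.gg hTh0 hTh htau0 htauX hJl hg
  have hgf : f (k0 + 1) - f k0 ≤ g := by
    refine hpg.trans ?_
    rw [hg]
    apply div_le_div_of_nonneg_right _ hJ0.le
    have := (hup (m - a - 3) (by omega)).2
    have := (hup (m - a - 3 - J) (by omega)).1
    linarith
  have h8k : 8 * 2 ^ k0 ≤ 2 ^ (m - a) := by
    have : (8 : ℕ) = 2 ^ 3 := by norm_num
    rw [this, ← pow_add]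
    exact Nat.pow_le_pow_right (by norm_num) (by omega)
  have h2k : 2 * 2 ^ k0 = 2 ^ (k0 + 1) := by rw [pow_succ]; ring
  obtain ⟨Ω', instΩ, μ', ξ, T, hloc⟩ := hE Γ lam.Lt lam.Z lam.N lam.zl lam.beta (2 ^ (m - a))
    (2 ^ k0) Q' tau g D1 u lam.beta_isProb hp' he' hac' Nat.one_le_two_pow h8k N.u1 hTC hg0
    (by rw [h2k]; rw [hf] at hgf; exact hgf) hDl
  rw [h2k] at hloc
  have hk0r : ((2 ^ k0 : ℕ) : ℝ) = 2 ^ k0 := by push_cast; rfl
  have hWr : ((2 ^ (m - a) : ℕ) : ℝ) = 2 ^ (m - a) := by push_cast; rfl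
  rw [hk0r, hWr] at hloc
  have hk00 : (0 : ℝ) < 2 ^ k0 := by positivity
  -- lower bound for `k`
  have hkP : 2 ^ m * exp (-l) ≤ (2 : ℝ) ^ k0 := by
    have h1 : (2 : ℝ) ^ m ≤ 2 ^ k0 * 2 ^ (a + 3 + J) := by
      rw [← pow_add]; exact pow_le_pow_right₀ (by norm_num) hk2
    have h2 : (2 : ℝ) ^ m ≤ 2 ^ k0 * exp l := h1.trans (mul_le_mul_of_nonneg_left hajl hk00.le)
    rw [exp_neg, ← div_eq_mul_inv, div_le_iff₀ hel]
    exact h2
  have hk64 : 64 * u ≤ (2 : ℝ) ^ k0 := by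
    refine le_trans ?_ hkP
    rw [exp_neg, ← div_eq_mul_inv, le_div_iff₀ hel]
    exact hPexp
  -- upper bound for `k`
  have hkW : 8 * (2 : ℝ) ^ k0 ≤ 2 ^ (m - a) := by exact_mod_cast h8k
  have hPu : (2 : ℝ) ^ m * u ≤ 4 * R := by
    rw [le_div_iff₀ hu0] at hm2; exact hm2
  have h2ku := N.ku hk00 hW0 hal hPW hPu hkW
  obtain ⟨K, hK⟩ : ∃ K : ℕ, K = ⌈(2 : ℝ) ^ k0 * u⌉₊ := ⟨_, rfl⟩
  obtain ⟨hKge, hKle, hK1⟩ := N.KK hk64 hK
  obtain ⟨M, hM'⟩ : ∃ M : ℕ, M = ⌈3 * (X + 1) / l⌉₊ := ⟨_, rfl⟩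
  obtain ⟨hMge, hMle, hM1⟩ := N.MM hM'
  obtain ⟨δ, hδ⟩ : ∃ t : ℝ, t = Ce * u * tau / 2 ^ (m - a) := ⟨_, rfl⟩
  rw [← hδ] at hloc
  have hδ0 : 0 ≤ δ := by rw [hδ]; positivity
  have hδe := N.del hal htauW hδ
  obtain ⟨lam', hc', hh'⟩ := hS Γ A lam Ω' μ' ξ T _ _ _ δ _ c (1.1 * R) M K hloc hcost hA hM1 hK1
    (N.del12 hδe) (N.delM hδ0 hδe hMge)
  refine ⟨lam', k0, hkP, by omega, ?_, ?_⟩
  · exact costLe_mono hc' (N.cost hk00 (Nat.cast_nonneg K) hKle h2ku hg0 htau0 hgt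
      (one_le_pow₀ (by norm_num)) htauW hD1b)
  · have hk56 : 56 ≤ 2 ^ k0 := by
      have : (56 : ℝ) ≤ 2 ^ k0 := by linarith [N.u1]
      exact_mod_cast this
    have h1 := hh' (2 ^ k0) hk56
    rw [hk0r] at h1
    refine h1.trans ?_
    have hup1 := (hup (k0 + 1) (by omega)).2
    rw [hf] at hup1
    exact N.ent hk64 (by exact_mod_cast hK1) hKge (Nat.cast_nonneg M) hMle hg0 htau0 hgt htauX
      hTh0 hup1

end Vale.Agent.P091.AD.H832
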